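import Vale.Agent.Lib.P228.Core

/-!
# P228: triangular actions of the p-adic integers on `ℝⁿ`

A continuous action of the `p`-adic integers on `ℝⁿ` is called triangular here if the `i`-th
coordinate of `g +ᵥ x` only depends on the coordinates `x_j`, `j ≤ i`.  For such an action
`2 ^ n • g` acts trivially for every `g`; in particular the action is not faithful.
-/

namespace Vale.Agent.Results.P228.Triangular

open Filter Topology Vale.Agent.Lib.P228

theorem result (p : ℕ) [Fact p.Prime] (n : ℕ)
    [AddAction ℤ_[p] (Fin n → ℝ)] [ContinuousVAdd ℤ_[p] (Fin n → ℝ)]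
    (htri : ∀ (g : ℤ_[p]) (x y : Fin n → ℝ) (i : Fin n),
      (∀ j, j ≤ i → x j = y j) → (g +ᵥ x) i = (g +ᵥ y) i) :
    (∀ (g : ℤ_[p]) (x : Fin n → ℝ), (2 ^ n • g) +ᵥ x = x) ∧
      ¬ FaithfulVAdd ℤ_[p] (Fin n → ℝ) := by
  have claim : ∀ m : ℕ, m ≤ n → ∀ (g : ℤ_[p]) (x : Fin n → ℝ) (i : Fin n), i.val < m →
      ((2 ^ m • g) +ᵥ x) i = x i := by
    intro m
    induction m with
    | zero => intro _ g x i hi; exact absurd hi (Nat.not_lt_zero _)
    | succ m ih =>
      intro hm g x i hi
      have ihm := ih (Nat.le_of_succ_le hm)
      have hpow : (2 ^ (m + 1)) • g = (2 ^ m) • (g + g) := by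
        rw [pow_succ, mul_smul, two_nsmul]
      rcases Nat.lt_succ_iff_lt_or_eq.1 hi with hlt | heq
      · rw [hpow]; exact ihm (g + g) x i hlt
      · -- the new coordinate
        set h : ℤ_[p] := (2 ^ m) • g with hh
        have hfixk : ∀ (k : ℕ) (y : Fin n → ℝ) (j : Fin n), j < i → ((k • h) +ᵥ y) j = y j := by
          intro k y j hj
          have : k • h = (2 ^ m) • (k • g) := by rw [hh, smul_comm]
          rw [this]
          exact ihm (k • g) y j (by rw [← heq]; exact hj)
        have hfix1 : ∀ (y : Fin n → ℝ) (j : Fin n), j < i → (h +ᵥ y) j = y j := by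
          intro y j hj
          simpa using hfixk 1 y j hj
        set f : ℝ → ℝ := fun t => (h +ᵥ Function.update x i t) i with hf
        have hiter : ∀ (k : ℕ) (t : ℝ), ((k • h) +ᵥ Function.update x i t) i = f^[k] t := by
          intro k
          induction k with
          | zero => intro t; simp
          | succ k ihk =>
            intro t
            rw [succ_nsmul, add_vadd, Function.iterate_succ_apply, ← ihk (f t)]
            apply htri
            intro j hj
            rcases lt_or_eq_of_le hj with hj' | hj'
            · rw [hfix1 _ j hj', Function.update_of_ne (ne_of_lt hj'),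
                Function.update_of_ne (ne_of_lt hj')]
            · subst hj'
              simp [hf]
        have hc : Continuous f := by
          have h1 : Continuous fun t : ℝ => h +ᵥ Function.update x i t :=
            (continuous_const_vadd h).comp (continuous_const.update i continuous_id)
          exact (continuous_apply i).comp h1
        have hi' : Function.Injective f := by
          intro s t hst
          have h1 : ((-h) +ᵥ (h +ᵥ Function.update x i s)) i
              = ((-h) +ᵥ (h +ᵥ Function.update x i t)) i := by
            apply htri
            intro j hj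
            rcases lt_or_eq_of_le hj with hj' | hj'
            · rw [hfix1 _ j hj', hfix1 _ j hj', Function.update_of_ne (ne_of_lt hj'),
                Function.update_of_ne (ne_of_lt hj')]
            · subst hj'
              exact hst
          simpa [vadd_vadd] using h1
        have hlim : ∀ t, Tendsto (fun k => (f ∘ f)^[p ^ k] t) atTop (𝓝 t) := by
          intro t
          have h1 : Tendsto (fun k : ℕ => ((p ^ k) • (h + h)) +ᵥ Function.update x i t) atTop
              (𝓝 ((0 : ℤ_[p]) +ᵥ Function.update x i t)) := by
            have hcont : Continuous fun a : ℤ_[p] => a +ᵥ Function.update x i t :=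
              continuous_id.vadd continuous_const
            exact (hcont.tendsto 0).comp (tendsto_pow_nsmul p (h + h))
          have h2 : ∀ k : ℕ, (((p ^ k) • (h + h)) +ᵥ Function.update x i t) i
              = (f ∘ f)^[p ^ k] t := by
            intro k
            have h3 : (p ^ k) • (h + h) = (2 * p ^ k) • h := by
              rw [← two_nsmul, smul_smul, mul_comm]
            rw [h3, hiter, Function.iterate_mul]
            rfl
          have h4 := ((continuous_apply i).tendsto _).comp h1
          simp only [Function.comp_def, h2, zero_vadd, Function.update_self] at h4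
          exact h4
        have h5 := sq_eq_id_of_recurrent hc hi' (fun k => p ^ k)
          (fun k => Nat.one_le_pow _ _ (Fact.out : p.Prime).pos) hlim (x i)
        have h6 := hiter 2 (x i)
        rw [Function.update_eq_self] at h6
        have h7 : (2 ^ (m + 1)) • g = 2 • h := by
          rw [hh, smul_smul, pow_succ, mul_comm]
        rw [h7, h6]
        exact h5
  have htriv : ∀ (g : ℤ_[p]) (x : Fin n → ℝ), (2 ^ n • g) +ᵥ x = x := by
    intro g x
    funext i
    exact claim n le_rfl g x i i.isLt
  refine ⟨htriv, fun hfaith => ?_⟩
  have h1 : (2 ^ n) • (1 : ℤ_[p]) = 0 := by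
    apply hfaith.eq_of_vadd_eq_vadd
    intro x
    rw [htriv, zero_vadd]
  simp [nsmul_eq_mul] at h1

end Vale.Agent.Results.P228.Triangular
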