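import Vale.Agent.Results.P228.FiberedReduction
import Vale.Agent.Results.P228.Triangular

/-!
# P228: the two partial results on continuous actions of the p-adic integers, in one statement
-/

namespace Vale.Agent.Results.P228.A_Combined

/-- (1) A faithful continuous action of `ℤ_[p]` on `B × ℝ` that respects the projection to `B`
induces a faithful action on `B`.  (2) A continuous triangular action of `ℤ_[p]` on `ℝ^n` is killed
by `2 ^ n`, hence is not faithful. -/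
theorem result.{u} (p : ℕ) [Fact p.Prime] :
    (∀ (B : Type u) [TopologicalSpace B]
      [AddAction ℤ_[p] B] [AddAction ℤ_[p] (B × ℝ)] [ContinuousVAdd ℤ_[p] (B × ℝ)]
      (_ : ∀ (g : ℤ_[p]) (x : B × ℝ), (g +ᵥ x).1 = g +ᵥ x.1)
      [FaithfulVAdd ℤ_[p] (B × ℝ)], FaithfulVAdd ℤ_[p] B) ∧
    (∀ (n : ℕ) [AddAction ℤ_[p] (Fin n → ℝ)] [ContinuousVAdd ℤ_[p] (Fin n → ℝ)]
      (_ : ∀ (g : ℤ_[p]) (x y : Fin n → ℝ) (i : Fin n),
        (∀ j, j ≤ i → x j = y j) → (g +ᵥ x) i = (g +ᵥ y) i),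
      (∀ (g : ℤ_[p]) (x : Fin n → ℝ), (2 ^ n • g) +ᵥ x = x) ∧
        ¬ FaithfulVAdd ℤ_[p] (Fin n → ℝ)) :=
  ⟨fun B _ _ _ _ hfib _ => FiberedReduction.result p B hfib,
   fun n _ _ htri => Triangular.result p n htri⟩

end Vale.Agent.Results.P228.A_Combined
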