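import Vale.Agent.Lib.P228.Core

/-!
# P228: line-fibred actions of the p-adic integers

If the `p`-adic integers act continuously and faithfully on `B × ℝ` (any topological space `B`)
by maps sending each fibre `{b} × ℝ` to a fibre, compatibly with an action on `B`, then the
action on the base `B` is already faithful.
-/

namespace Vale.Agent.Results.P228.FiberedReduction

open Filter Topology Vale.Agent.Lib.P228

theorem result (p : ℕ) [Fact p.Prime] (B : Type*) [TopologicalSpace B]
    [AddAction ℤ_[p] B] [AddAction ℤ_[p] (B × ℝ)] [ContinuousVAdd ℤ_[p] (B × ℝ)]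
    (hfib : ∀ (g : ℤ_[p]) (x : B × ℝ), (g +ᵥ x).1 = g +ᵥ x.1)
    [FaithfulVAdd ℤ_[p] (B × ℝ)] : FaithfulVAdd ℤ_[p] B := by
  -- it suffices to treat an element acting trivially on the base
  have key : ∀ g : ℤ_[p], (∀ b : B, g +ᵥ b = b) → g = 0 := by
    intro g hg
    -- the map induced on the fibre over `b`
    have hfix : ∀ (b : B) (t : ℝ), (g + g) +ᵥ (b, t) = (b, t) := by
      intro b
      set f : ℝ → ℝ := fun t => (g +ᵥ ((b, t) : B × ℝ)).2 with hf
      have hgf : ∀ t, g +ᵥ ((b, t) : B × ℝ) = (b, f t) := by
        intro t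
        apply Prod.ext
        · rw [hfib]; exact hg b
        · rfl
      have hiter : ∀ (n : ℕ) (t : ℝ), (n • g) +ᵥ ((b, t) : B × ℝ) = (b, f^[n] t) := by
        intro n
        induction n with
        | zero => intro t; simp
        | succ n ih =>
          intro t
          rw [succ_nsmul, add_vadd, hgf, ih, Function.iterate_succ_apply]
      have hc : Continuous f := by
        have h1 : Continuous fun t : ℝ => g +ᵥ ((b, t) : B × ℝ) :=
          (continuous_const_vadd g).comp (Continuous.prodMk_right b)
        exact continuous_snd.comp h1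
      have hi : Function.Injective f := by
        intro s t hst
        have h1 : g +ᵥ ((b, s) : B × ℝ) = g +ᵥ ((b, t) : B × ℝ) := by
          rw [hgf, hgf, hst]
        have h2 := vadd_left_cancel g h1
        exact (Prod.ext_iff.1 h2).2
      have hlim : ∀ t, Tendsto (fun k => (f ∘ f)^[p ^ k] t) atTop (𝓝 t) := by
        intro t
        have h1 : Tendsto (fun k : ℕ => ((p ^ k) • (g + g)) +ᵥ ((b, t) : B × ℝ)) atTop
            (𝓝 ((0 : ℤ_[p]) +ᵥ ((b, t) : B × ℝ))) := by
          have hcont : Continuous fun h : ℤ_[p] => h +ᵥ ((b, t) : B × ℝ) :=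
            continuous_id.vadd continuous_const
          exact (hcont.tendsto 0).comp (tendsto_pow_nsmul p (g + g))
        have h2 : ∀ k : ℕ, ((p ^ k) • (g + g)) +ᵥ ((b, t) : B × ℝ) = (b, (f ∘ f)^[p ^ k] t) := by
          intro k
          have h3 : (p ^ k) • (g + g) = (2 * p ^ k) • g := by
            rw [← two_nsmul, smul_smul, mul_comm]
          rw [h3, hiter, Function.iterate_mul]
          rfl
        simp only [h2, zero_vadd] at h1
        exact (continuous_snd.tendsto _).comp h1
      intro t
      have h4 := sq_eq_id_of_recurrent hc hi (fun k => p ^ k)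
        (fun k => Nat.one_le_pow _ _ (Fact.out : p.Prime).pos) hlim t
      rw [add_vadd, hgf, hgf, h4]
    have h5 : g + g = 0 := by
      apply FaithfulVAdd.eq_of_vadd_eq_vadd (P := B × ℝ)
      rintro ⟨b, t⟩
      rw [hfix, zero_vadd]
    have h6 : (2 : ℤ_[p]) * g = 0 := by rw [two_mul]; exact h5
    rcases mul_eq_zero.1 h6 with h | h
    · exact absurd h two_ne_zero
    · exact h
  refine ⟨fun {g₁ g₂} h => ?_⟩
  have h7 : g₁ - g₂ = 0 := by
    apply key
    intro b
    have h8 := h (-g₂ +ᵥ b)
    rw [vadd_vadd, vadd_vadd] at h8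
    simpa [sub_eq_add_neg] using h8
  exact sub_eq_zero.1 h7

end Vale.Agent.Results.P228.FiberedReduction
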